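import Vale.Agent.P246.R2.H429.Defs5

/-! # P246, row HOM: presentation complexes of the same presentation are homeomorphic -/

namespace Vale.Agent.P246.H941

open Vale.Agent.P246 Vale.Agent.P246.T Topology Set Metric

section

variable {G : Type} [Group G] {Pr : FinPresentation G}

/-- the disjoint union of the closed cells -/
abbrev KK (Pr : FinPresentation G) : Type :=
  Unit ⊕ ((Fin Pr.gens × Dk 1) ⊕ (Fin Pr.rels × Dk 2))

/-- interior points -/
def Int : KK Pr → Prop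
  | .inl _ => True
  | .inr (.inl q) => ‖(q.2 : Fin 1 → ℝ)‖ < 1
  | .inr (.inr q) => ‖(q.2 : Fin 2 → ℝ)‖ < 1

variable {X E : Type} [TopologicalSpace X] [TopologicalSpace E] [MulAction G E]
  [ContinuousConstSMul G E] {p : C(E, X)}

/-- the characteristic map -/
noncomputable def FF (c : PresCx Pr p) : KK Pr → X :=
  Sum.elim (fun _ => p c.e) (Sum.elim (fun q => p (c.edge q.1 q.2)) (fun q => p (c.b q.1 q.2)))

theorem continuous_FF (c : PresCx Pr p) : Continuous (FF c) := by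
  refine Continuous.sumElim continuous_const (Continuous.sumElim ?_ ?_)
  · exact continuous_prod_of_discrete_left.2 fun i => (p.comp (c.edge i)).continuous
  · exact continuous_prod_of_discrete_left.2 fun i => (p.comp (c.b i)).continuous

theorem FF_mem (c : PresCx Pr p) (k : KK Pr) : FF c k ∈ c.Y := by
  rcases k with _ | ⟨i, z⟩ | ⟨j, z⟩
  · exact Or.inl (Or.inl rfl)
  · exact Or.inl (Or.inr (mem_iUnion₂.2 ⟨i, i.2, ⟨z, rfl⟩⟩))
  · exact Or.inr (mem_iUnion₂.2 ⟨j, j.2, ⟨z, rfl⟩⟩)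

theorem exists_FF (c : PresCx Pr p) {x : X} (hx : x ∈ c.Y) : ∃ k, FF c k = x := by
  rcases hx with (hx | hx) | hx
  · exact ⟨.inl (), hx.symm⟩
  · obtain ⟨i, -, z, rfl⟩ := mem_iUnion₂.1 hx
    exact ⟨.inr (.inl (i, z)), rfl⟩
  · obtain ⟨j, -, z, rfl⟩ := mem_iUnion₂.1 hx
    exact ⟨.inr (.inr (j, z)), rfl⟩

theorem mem_Y1_vertex (c : PresCx Pr p) (k : ℕ) : p c.e ∈ c.Y1 k := Or.inl rfl

theorem mem_Y1_edge (c : PresCx Pr p) {k : ℕ} {i : Fin Pr.gens} (h : (i : ℕ) < k) (z : Dk 1) :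
    p (c.edge i z) ∈ c.Y1 k := Or.inr (mem_iUnion₂.2 ⟨i, h, ⟨z, rfl⟩⟩)

theorem mem_Y2_face (c : PresCx Pr p) {k : ℕ} {j : Fin Pr.rels} (h : (j : ℕ) < k) (z : Dk 2) :
    p (c.b j z) ∈ c.Y2 k := Or.inr (mem_iUnion₂.2 ⟨j, h, ⟨z, rfl⟩⟩)

theorem inj_FF (c : PresCx Pr p) (hc : c.Good) (k k' : KK Pr) (hk : Int k) (hk' : Int k')
    (h : FF c k = FF c k') : k = k' := by
  rcases k with ⟨⟩ | ⟨i, z⟩ | ⟨j, z⟩ <;> rcases k' with ⟨⟩ | ⟨i', z'⟩ | ⟨j', z'⟩
  · rfl
  · exact absurd ((show p c.e = p (c.edge i' z') from h) ▸ mem_Y1_vertex c i' :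
      p (c.edge i' z') ∈ c.Y1 i') ((hc.att1 i').int z' hk')
  · exact absurd (Or.inl ((show p c.e = p (c.b j' z') from h) ▸ mem_Y1_vertex c _) :
      p (c.b j' z') ∈ c.Y2 j') ((hc.att2 j').int z' hk')
  · exact absurd ((show p c.e = p (c.edge i z) from h.symm) ▸ mem_Y1_vertex c i :
      p (c.edge i z) ∈ c.Y1 i) ((hc.att1 i).int z hk)
  · rcases lt_trichotomy i i' with hi | hi | hi
    · exact absurd ((show p (c.edge i z) = p (c.edge i' z') from h) ▸
        mem_Y1_edge c hi z : p (c.edge i' z') ∈ c.Y1 i') ((hc.att1 i').int z' hk')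
    · subst hi
      rw [(hc.att1 i).inj z z' hk hk' h]
    · exact absurd ((show p (c.edge i z) = p (c.edge i' z') from h).symm ▸
        mem_Y1_edge c hi z' : p (c.edge i z) ∈ c.Y1 i) ((hc.att1 i).int z hk)
  · exact absurd (Or.inl ((show p (c.edge i z) = p (c.b j' z') from h) ▸ mem_Y1_edge c i.2 z) :
      p (c.b j' z') ∈ c.Y2 j') ((hc.att2 j').int z' hk')
  · exact absurd (Or.inl ((show p c.e = p (c.b j z) from h.symm) ▸ mem_Y1_vertex c _) :
      p (c.b j z) ∈ c.Y2 j) ((hc.att2 j).int z hk)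
  · exact absurd (Or.inl ((show p (c.b j z) = p (c.edge i' z') from h).symm ▸
      mem_Y1_edge c i'.2 z') : p (c.b j z) ∈ c.Y2 j) ((hc.att2 j).int z hk)
  · rcases lt_trichotomy j j' with hj | hj | hj
    · exact absurd ((show p (c.b j z) = p (c.b j' z') from h) ▸
        mem_Y2_face c hj z : p (c.b j' z') ∈ c.Y2 j') ((hc.att2 j').int z' hk')
    · subst hj
      rw [(hc.att2 j).inj z z' hk hk' h]
    · exact absurd ((show p (c.b j z) = p (c.b j' z') from h).symm ▸
        mem_Y2_face c hj z' : p (c.b j z) ∈ c.Y2 j) ((hc.att2 j).int z hk)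

end

section two

variable {G : Type} [Group G] {Pr : FinPresentation G} {X E X' E' : Type} [TopologicalSpace X]
  [TopologicalSpace E] [MulAction G E] [ContinuousConstSMul G E] {p : C(E, X)}
  [TopologicalSpace X'] [TopologicalSpace E'] [MulAction G E']
  [ContinuousConstSMul G E'] {p' : C(E', X')}

/-- `x` and `x'` are the images of the same interior point -/
def Sm (c : PresCx Pr p) (c' : PresCx Pr p') (x : X) (x' : X') : Prop :=
  ∃ k : KK Pr, Int k ∧ FF c k = x ∧ FF c' k = x'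

theorem sm_vertex (c : PresCx Pr p) (c' : PresCx Pr p') : Sm c c' (p c.e) (p' c'.e) :=
  ⟨.inl (), trivial, rfl, rfl⟩

omit [ContinuousConstSMul G E] in
theorem p_smul (hp : IsQuotientCoveringMap p G) (g : G) (y : E) : p (g • y) = p y :=
  hp.apply_eq_iff_mem_orbit.2 ⟨g, rfl⟩

theorem sm_path (hp : IsQuotientCoveringMap p G) (hp' : IsQuotientCoveringMap p' G)
    (c : PresCx Pr p) (c' : PresCx Pr p') (i : Fin Pr.gens) (t : I) :
    Sm c c' (p (c.a i t)) (p' (c'.a i t)) := by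
  by_cases h0 : t = 0
  · subst h0
    rw [(c.a i).source, (c'.a i).source]
    exact sm_vertex c c'
  by_cases h1 : t = 1
  · subst h1
    rw [(c.a i).target, (c'.a i).target, p_smul hp, p_smul hp']
    exact sm_vertex c c'
  have ht0 : (0 : ℝ) < t := lt_of_le_of_ne t.2.1 fun h => h0 (Subtype.ext h.symm)
  have ht1 : (t : ℝ) < 1 := lt_of_le_of_ne t.2.2 fun h => h1 (Subtype.ext h)
  have hn : ‖(fun _ => 2 * (t : ℝ) - 1 : Fin 1 → ℝ)‖ < 1 := by
    rw [pi_norm_lt_iff one_pos]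
    intro _
    rw [Real.norm_eq_abs, abs_lt]
    constructor <;> linarith
  let z : Dk 1 := ⟨fun _ => 2 * (t : ℝ) - 1, by
    rw [mem_closedBall_zero_iff]; exact hn.le⟩
  have hpar : par ((z : Fin 1 → ℝ) 0) = t := by
    have : ((2 * (t : ℝ) - 1) + 1) / 2 = t := by ring
    change Set.projIcc 0 1 zero_le_one (((2 * (t : ℝ) - 1) + 1) / 2) = t
    rw [this]
    exact Set.projIcc_val zero_le_one t
  refine ⟨.inr (.inl (i, z)), hn, ?_, ?_⟩
  · change p (c.a i (par ((z : Fin 1 → ℝ) 0))) = _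
    rw [hpar]
  · change p' (c'.a i (par ((z : Fin 1 → ℝ) 0))) = _
    rw [hpar]

theorem sm_letter (hp : IsQuotientCoveringMap p G) (hp' : IsQuotientCoveringMap p' G)
    (c : PresCx Pr p) (c' : PresCx Pr p') (l : Fin Pr.gens × Bool) (t : I) :
    Sm c c' (p (lpath Pr.x c.a l t)) (p' (lpath Pr.x c'.a l t)) := by
  rcases l with ⟨i, _ | _⟩
  · have h := sm_path hp hp' c c' i (unitInterval.symm t)
    rw [← p_smul hp (Pr.x i)⁻¹, ← p_smul hp' (Pr.x i)⁻¹] at h
    exact h
  · exact sm_path hp hp' c c' i t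

theorem sm_word (hp : IsQuotientCoveringMap p G) (hp' : IsQuotientCoveringMap p' G)
    (c : PresCx Pr p) (c' : PresCx Pr p') (w : List (Fin Pr.gens × Bool)) : ∀ t : I,
    Sm c c' (p (wpath Pr.x c.a w t)) (p' (wpath Pr.x c'.a w t)) := by
  induction w with
  | nil => exact fun t => sm_vertex c c'
  | cons l w ih =>
    intro t
    change Sm c c' (p (((lpath Pr.x c.a l).trans (gpath (lval Pr.x l) (wpath Pr.x c.a w))) t))
      (p' (((lpath Pr.x c'.a l).trans (gpath (lval Pr.x l) (wpath Pr.x c'.a w))) t))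
    rw [Path.trans_apply, Path.trans_apply]
    split_ifs with h
    · exact sm_letter hp hp' c c' l _
    · change Sm c c' (p (lval Pr.x l • wpath Pr.x c.a w _)) (p' (lval Pr.x l • wpath Pr.x c'.a w _))
      rw [p_smul hp, p_smul hp']
      exact ih _

theorem sm_all (hp : IsQuotientCoveringMap p G) (hp' : IsQuotientCoveringMap p' G)
    (c : PresCx Pr p) (c' : PresCx Pr p') (k : KK Pr) : Sm c c' (FF c k) (FF c' k) := by
  rcases k with ⟨⟩ | ⟨i, z⟩ | ⟨j, z⟩
  · exact sm_vertex c c'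
  · exact sm_path hp hp' c c' i _
  · by_cases hz : ‖(z : Fin 2 → ℝ)‖ < 1
    · exact ⟨.inr (.inr (j, z)), hz, rfl, rfl⟩
    have hz1 : ‖(z : Fin 2 → ℝ)‖ = 1 :=
      le_antisymm (mem_closedBall_zero_iff.1 z.2) (not_lt.1 hz)
    have h := c.bdry j z hz1
    have h' := c'.bdry j z hz1
    change Sm c c' (p (c.b j z)) (p' (c'.b j z))
    by_cases h1 : (z : Fin 2 → ℝ) 0 = 1
    · rw [h.1 h1, h'.1 h1]
      exact sm_word hp hp' c c' _ _
    · rw [h.2 h1, h'.2 h1]
      exact sm_vertex c c'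

theorem ker_le (hp : IsQuotientCoveringMap p G) (hp' : IsQuotientCoveringMap p' G)
    (c : PresCx Pr p) (c' : PresCx Pr p') (hc : c.Good) (k l : KK Pr) (h : FF c k = FF c l) :
    FF c' k = FF c' l := by
  obtain ⟨k', ik, h1, h2⟩ := sm_all hp hp' c c' k
  obtain ⟨l', il, h3, h4⟩ := sm_all hp hp' c c' l
  rw [← h2, ← h4, inj_FF c hc k' l' ik il (by rw [h1, h3, h])]

/-- the characteristic map as a map to the complex -/
noncomputable def FY (c : PresCx Pr p) : C(KK Pr, c.Y) :=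
  ⟨fun k => ⟨FF c k, FF_mem c k⟩, (continuous_FF c).subtype_mk _⟩

theorem isQuotientMap_FY [T2Space X] (c : PresCx Pr p) : IsQuotientMap (FY c) := by
  have : CompactSpace (KK Pr) := inferInstance
  refine (FY c).continuous.isClosedMap.isQuotientMap (FY c).continuous ?_
  rintro ⟨x, hx⟩
  obtain ⟨k, hk⟩ := exists_FF c hx
  exact ⟨k, Subtype.ext hk⟩

end two

theorem hom : H429.SpecHom := by
  intro G X E X' E' _ _ _ _ _ _ p _ _ _ _ _ p' hp hp' Pr c c' hc hc'
  have q := isQuotientMap_FY c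
  have q' := isQuotientMap_FY c'
  have hk : ∀ k l, FY c k = FY c l → FY c' k = FY c' l := fun k l h =>
    Subtype.ext (ker_le hp hp' c c' hc k l (congrArg Subtype.val h))
  have hk' : ∀ k l, FY c' k = FY c' l → FY c k = FY c l := fun k l h =>
    Subtype.ext (ker_le hp' hp c' c hc' k l (congrArg Subtype.val h))
  let f : C(c.Y, c'.Y) := q.lift (FY c') fun _ _ h => hk _ _ h
  let g : C(c'.Y, c.Y) := q'.lift (FY c) fun _ _ h => hk' _ _ h
  have hf : ∀ k, f (FY c k) = FY c' k := fun k =>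
    DFunLike.congr_fun (q.lift_comp (FY c') fun _ _ h => hk _ _ h) k
  have hg : ∀ k, g (FY c' k) = FY c k := fun k =>
    DFunLike.congr_fun (q'.lift_comp (FY c) fun _ _ h => hk' _ _ h) k
  refine ⟨{ toFun := f, invFun := g, left_inv := ?_, right_inv := ?_,
            continuous_toFun := f.continuous, continuous_invFun := g.continuous }⟩
  · intro y
    obtain ⟨k, rfl⟩ := q.surjective y
    rw [hf, hg]
  · intro y
    obtain ⟨k, rfl⟩ := q'.surjective y
    rw [hg, hf]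

end Vale.Agent.P246.H941
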